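import Vale.Agent.H65.GenK.Normalise
import Vale.Agent.H15.GenK.AllBodies

/-!
# General convex bodies (P243): an absolute constant above `1/3`

`all_bodies`: every covering of every convex body of Euclidean 3-space by finitely many cylinders
has relative base areas summing to at least `1/3 + 1/10^37`.

Proof: `Vale.Agent.H15.GenK.genK_all_cylinders` gives `1/3 + (ρ/R)^15 / (18 * 9720000000^2)` for
a convex body between two concentric balls of radii `ρ` and `R`; by `all_of_round` it suffices
to treat `ρ = 1/5`, `R = 21/10`, where this number is larger than `1/3 + 1/10^37`.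
-/

open MeasureTheory Set Module
open scoped ENNReal

namespace Vale.Agent.H65.GenK

open Vale.Agent.H5.P243

/-- **Every convex body, every covering.** -/
theorem all_bodies (m : ℕ) (K : Set E3) (hKconv : Convex ℝ K) (hKcomp : IsCompact K)
    (hKint : (interior K).Nonempty) (u : Fin m → E3) (hu : ∀ i, ‖u i‖ = 1)
    (B : Fin m → Set E3) (hB : ∀ i, ∀ x ∈ B i, inner ℝ x (u i) = 0)
    (hcov : K ⊆ ⋃ i, {x | ∃ p ∈ B i, ∃ t : ℝ, x = p + t • u i}) :
    ENNReal.ofReal (1 / 3 + 1 / 10 ^ 37) ≤
      ∑ i, μHE[2] (B i) / μHE[2] ((fun x => x - inner ℝ x (u i) • u i) '' K) := by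
  refine all_of_round (1 / 3 + 1 / 10 ^ 37) ?_ m K hKconv hKcomp hKint u hu B hB hcov
  intro m K c hconv hcomp hin hout u hu B hB hcov
  have hnum : (1 / 3 + 1 / 10 ^ 37 : ℝ) ≤
      1 / 3 + ((1 / 5 : ℝ) / (21 / 10)) ^ 15 / (18 * 9720000000 ^ 2) := by
    norm_num
  exact (ENNReal.ofReal_le_ofReal hnum).trans
    (Vale.Agent.H15.GenK.genK_all_cylinders m K hcomp hconv c (1 / 5) (21 / 10) (by norm_num)
      (Metric.ball_subset_closedBall.trans hin) hout u hu B hB hcov)

end Vale.Agent.H65.GenK
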