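import Vale.Agent.H65.GenK.MaxDet
import Vale.Agent.H24.P243N.Sandwich

/-!
# General convex bodies (P243), normalisation: the affine map of a maximal simplex

ROW GKN-3b (`max_simplex_of_det`). Let `v 0, …, v 3 ∈ K` (`K` convex) have `det4 v ≠ 0` and
maximise `|det4|` over the quadruples of points of `K`. Then there is an invertible affine map
`A x = T x + b` such that `A '' K` contains every `y` with `y i ≥ 0`, `∑ y i ≤ 1` (the standard
simplex) and every point of `A '' K` has all coordinates in `[-1, 1]`.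

Sketch. `M := Matrix.of fun i j => (v j.succ - v 0) i` has `det M = det4 v ≠ 0`, so it is
invertible; `T :=` the linear equivalence of `E3` given by `M⁻¹` (for instance
`LinearEquiv.ofLinear (Matrix.toEuclideanLin M⁻¹) (Matrix.toEuclideanLin M) _ _`, or via
`Matrix.toLin'` and `EuclideanSpace.equiv`/`WithLp.linearEquiv`), `b := - T (v 0)`, so that
`T x + b = β` means `x - v 0 = ∑ j, β j • (v j.succ - v 0)`.
* simplex: for `y` with `y i ≥ 0`, `∑ y i ≤ 1` the point
  `x = (1 - ∑ y i) • v 0 + ∑ j, y j • v j.succ` is in `K` (convexity) and `T x + b = y`.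
* cube: for `x ∈ K` and `j : Fin 3` let `w := Function.update v j.succ x`; then
  `det4 w = β j * det4 v` where `β = T x + b` (Cramer: `Matrix.det_updateCol_...`/
  `Matrix.cramer_apply`, `Matrix.mulVec_cramer`; or multilinearity of `det` in the column `j`:
  `x - v 0 = ∑ k, β k • (v k.succ - v 0)` and the terms `k ≠ j` have two equal columns), so
  `|β j| * |det4 v| = |det4 w| ≤ |det4 v|` and `|β j| ≤ 1`.
-/

open MeasureTheory Set Module
open scoped ENNReal

namespace Vale.Agent.H65.GenK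

open Vale.Agent.H5.P243

/-- **The affine map of a maximal simplex.** -/
theorem max_simplex_of_det (K : Set E3) (hKconv : Convex ℝ K) (v : Fin 4 → E3)
    (hv : ∀ j, v j ∈ K) (h0 : det4 v ≠ 0)
    (hmax : ∀ w : Fin 4 → E3, (∀ j, w j ∈ K) → |det4 w| ≤ |det4 v|) :
    ∃ (T : E3 ≃ₗ[ℝ] E3) (b : E3),
      (∀ y : E3, (∀ i, 0 ≤ y i) → ∑ i, y i ≤ 1 → y ∈ (fun x => T x + b) '' K) ∧
      (∀ x ∈ K, ∀ i, |(T x + b) i| ≤ 1) := by
  have hdet : (Vale.Agent.H24.P243N.edgeMat v).det ≠ 0 := h0
  have hmax' : ∀ w : Fin 4 → E3, (∀ i, w i ∈ K) →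
      |(Vale.Agent.H24.P243N.edgeMat w).det| ≤ |(Vale.Agent.H24.P243N.edgeMat v).det| := hmax
  set M := Vale.Agent.H24.P243N.edgeMat v with hMdef
  set T := Vale.Agent.H24.P243N.cramerCLE M hdet with hTdef
  have hTb : ∀ x : E3, T x + -T (v 0) = T (x - v 0) := fun x => by
    rw [map_sub, sub_eq_add_neg]
  have hcoord : ∀ x : E3, ∀ i, (T (x - v 0)) i
      = (M.det)⁻¹ * M.cramer (fun k => x k - (v 0) k) i := fun x i => rfl
  refine ⟨T.toLinearEquiv, -T (v 0), ?_, ?_⟩
  · intro z hz0 hzs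
    have h0' : 0 ≤ z 0 := hz0 0
    have h1' : 0 ≤ z 1 := hz0 1
    have h2' : 0 ≤ z 2 := hz0 2
    have hsum : z 0 + z 1 + z 2 ≤ 1 := by simpa [Fin.sum_univ_three] using hzs
    let wt : Fin 4 → ℝ := Fin.cons (1 - (z 0 + z 1 + z 2)) fun j => z j
    have hwt0 : wt 0 = 1 - (z 0 + z 1 + z 2) := rfl
    have hwts : ∀ j : Fin 3, wt j.succ = z j := fun j => rfl
    have hx : ∑ i, wt i • v i ∈ K := by
      refine hKconv.sum_mem (fun i _ => ?_) ?_ (fun i _ => hv i)
      · refine Fin.cases ?_ (fun j => ?_) i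
        · rw [hwt0]; linarith
        · rw [hwts]; exact hz0 j
      · rw [Fin.sum_univ_succ, hwt0]
        simp only [hwts, Fin.sum_univ_three]
        ring
    refine ⟨∑ i, wt i • v i, hx, ?_⟩
    show T (∑ i, wt i • v i) + -T (v 0) = z
    rw [hTb]
    ext i
    rw [hcoord]
    have hfun : (fun k => (∑ i, wt i • v i) k - (v 0) k) = M.mulVec fun j => z j := by
      funext k
      rw [Fin.sum_univ_succ, hwt0]
      simp only [hwts, Fin.sum_univ_three, Matrix.mulVec, dotProduct, hMdef,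
        Vale.Agent.H24.P243N.edgeMat_apply, PiLp.add_apply, PiLp.smul_apply, smul_eq_mul]
      ring
    rw [hfun]
    have := Vale.Agent.H24.P243N.cramerEquiv_mulVec M hdet fun j => z j
    have h3 := congrFun this i
    rw [Vale.Agent.H24.P243N.cramerEquiv_apply] at h3
    simpa using h3
  · intro x hx i
    show |(T x + -T (v 0)) i| ≤ 1
    rw [hTb, hcoord]
    exact Vale.Agent.H24.P243N.cramer_coord_le K v hv hmax' hdet x hx i

end Vale.Agent.H65.GenK
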