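import Vale.Agent.H5.P243.Scale

/-!
# General convex bodies (P243), normalisation: the standard simplex is round

`c0 = (1/5, 1/5, 1/5)`.

ROW GKN-4. `ball_sub_simplex`: the closed ball of radius `1/5` about `c0` lies in the standard
simplex `{y : y i ≥ 0, ∑ y i ≤ 1}`. `cube_sub_ball`: the cube `[-1, 1]^3` lies in the closed ball
of radius `21/10` about `c0`.

Sketch. `dist y c0 ^ 2 = ∑ i, (y i - 1/5)^2` (`EuclideanSpace.dist_eq`, `Fin.sum_univ_three`,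
`Real.sq_sqrt`). If this is `≤ 1/25` then each `(y i - 1/5)^2 ≤ 1/25`, so `0 ≤ y i`, and
`(∑ i, (y i - 1/5))^2 ≤ 3 * ∑ i, (y i - 1/5)^2 ≤ 3/25 < (2/5)^2`, so `∑ y i ≤ 3/5 + 2/5 = 1`.
If `|y i| ≤ 1` for all `i` then `(y i - 1/5)^2 ≤ (6/5)^2`, the sum is `≤ 108/25 ≤ (21/10)^2`.
-/

open MeasureTheory Set Module
open scoped ENNReal

namespace Vale.Agent.H65.GenK

open Vale.Agent.H5.P243

/-- The point `(1/5, 1/5, 1/5)`. -/
noncomputable def c0 : E3 := !₂[1 / 5, 1 / 5, 1 / 5]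

theorem round_dist_sq (y : E3) :
    dist y c0 ^ 2 = (y 0 - 1 / 5) ^ 2 + (y 1 - 1 / 5) ^ 2 + (y 2 - 1 / 5) ^ 2 := by
  rw [EuclideanSpace.dist_eq, Real.sq_sqrt (Finset.sum_nonneg fun i _ => sq_nonneg _),
    Fin.sum_univ_three]
  simp [c0, Real.dist_eq, sq_abs]

theorem ball_sub_simplex (y : E3) (hy : y ∈ Metric.closedBall c0 (1 / 5)) :
    (∀ i, 0 ≤ y i) ∧ ∑ i, y i ≤ 1 := by
  rw [Metric.mem_closedBall] at hy
  have h0 : 0 ≤ dist y c0 := dist_nonneg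
  have h2 : dist y c0 ^ 2 ≤ 1 / 25 := by nlinarith
  rw [round_dist_sq] at h2
  refine ⟨?_, ?_⟩
  · intro i
    fin_cases i
    · show 0 ≤ y 0
      nlinarith [sq_nonneg (y 0 - 1 / 5), sq_nonneg (y 1 - 1 / 5), sq_nonneg (y 2 - 1 / 5)]
    · show 0 ≤ y 1
      nlinarith [sq_nonneg (y 0 - 1 / 5), sq_nonneg (y 1 - 1 / 5), sq_nonneg (y 2 - 1 / 5)]
    · show 0 ≤ y 2
      nlinarith [sq_nonneg (y 0 - 1 / 5), sq_nonneg (y 1 - 1 / 5), sq_nonneg (y 2 - 1 / 5)]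
  · rw [Fin.sum_univ_three]
    nlinarith [sq_nonneg (y 0 - y 1), sq_nonneg (y 1 - y 2), sq_nonneg (y 0 - y 2),
      sq_nonneg (y 0 + y 1 + y 2 - 1)]

theorem cube_sub_ball (y : E3) (hy : ∀ i, |y i| ≤ 1) : y ∈ Metric.closedBall c0 (21 / 10) := by
  rw [Metric.mem_closedBall]
  have h0 : 0 ≤ dist y c0 := dist_nonneg
  have h2 : dist y c0 ^ 2 ≤ (21 / 10) ^ 2 := by
    rw [round_dist_sq]
    have a0 := abs_le.mp (hy 0)
    have a1 := abs_le.mp (hy 1)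
    have a2 := abs_le.mp (hy 2)
    nlinarith [a0.1, a0.2, a1.1, a1.2, a2.1, a2.2]
  by_contra hc
  push Not at hc
  nlinarith [h2, h0, hc]

end Vale.Agent.H65.GenK
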