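import Vale.Agent.H65.GenK.TransferCover
import Vale.Agent.H65.GenK.MaxSimplex
import Vale.Agent.H65.GenK.Round

/-!
# General convex bodies (P243), normalisation: from round bodies to all convex bodies

`all_of_round`: if a lower bound `ε` for the sum of the relative base areas holds for every
cylinder covering of every convex body lying between the closed balls of radii `1/5` and `21/10`
about `c0 = (1/5, 1/5, 1/5)`, then it holds for every cylinder covering of every convex body.

Proof: a simplex of maximal volume in `K` is mapped to the standard simplex by an invertible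
affine map `A`; then `A '' K` contains the standard simplex (hence the ball of radius `1/5` about
`c0`) and lies in the cube `[-1, 1]^3` (hence in the ball of radius `21/10` about `c0`); the
covering is transported by `A` without changing the relative base areas (`transfer_cover`).
-/

open MeasureTheory Set Module
open scoped ENNReal

namespace Vale.Agent.H65.GenK

open Vale.Agent.H5.P243

/-- Every convex body has an invertible affine image containing the standard simplex and
contained in the cube `[-1, 1]^3`. -/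
theorem max_simplex (K : Set E3) (hKconv : Convex ℝ K) (hKcomp : IsCompact K)
    (hKint : (interior K).Nonempty) :
    ∃ (T : E3 ≃ₗ[ℝ] E3) (b : E3),
      (∀ y : E3, (∀ i, 0 ≤ y i) → ∑ i, y i ≤ 1 → y ∈ (fun x => T x + b) '' K) ∧
      (∀ x ∈ K, ∀ i, |(T x + b) i| ≤ 1) := by
  obtain ⟨v, hv, h0, hmax⟩ := exists_max_det K hKcomp hKint
  exact max_simplex_of_det K hKconv v hv h0 hmax

/-- **From round bodies to all convex bodies.** -/
theorem all_of_round (ε : ℝ)
    (hround : ∀ (m : ℕ) (K : Set E3), Convex ℝ K → IsCompact K →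
      Metric.closedBall c0 (1 / 5) ⊆ K → K ⊆ Metric.closedBall c0 (21 / 10) →
      ∀ (u : Fin m → E3), (∀ i, ‖u i‖ = 1) → ∀ (B : Fin m → Set E3),
      (∀ i, ∀ x ∈ B i, inner ℝ x (u i) = 0) →
      K ⊆ ⋃ i, {x | ∃ p ∈ B i, ∃ t : ℝ, x = p + t • u i} →
      ENNReal.ofReal ε ≤
        ∑ i, μHE[2] (B i) / μHE[2] ((fun x => x - inner ℝ x (u i) • u i) '' K))
    (m : ℕ) (K : Set E3) (hKconv : Convex ℝ K) (hKcomp : IsCompact K)
    (hKint : (interior K).Nonempty) (u : Fin m → E3) (hu : ∀ i, ‖u i‖ = 1)
    (B : Fin m → Set E3) (hB : ∀ i, ∀ x ∈ B i, inner ℝ x (u i) = 0)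
    (hcov : K ⊆ ⋃ i, {x | ∃ p ∈ B i, ∃ t : ℝ, x = p + t • u i}) :
    ENNReal.ofReal ε ≤
      ∑ i, μHE[2] (B i) / μHE[2] ((fun x => x - inner ℝ x (u i) • u i) '' K) := by
  obtain ⟨T, b, hsimp, hcube⟩ := max_simplex K hKconv hKcomp hKint
  obtain ⟨u', B', hu', hB', hcov', hrat⟩ := transfer_cover T b m K u hu B hB hcov
  have hK'conv : Convex ℝ ((fun x => T x + b) '' K) := by
    rintro _ ⟨x, hx, rfl⟩ _ ⟨y, hy, rfl⟩ a c ha hc hac
    refine ⟨a • x + c • y, hKconv hx hy ha hc hac, ?_⟩
    have hb : b = a • b + c • b := by rw [← add_smul, hac, one_smul]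
    simp only [map_add, map_smul]
    nth_rewrite 1 [hb]
    module
  have hTcont : Continuous fun x : E3 => T x + b :=
    (T.toLinearMap.continuous_of_finiteDimensional).add continuous_const
  have hK'comp : IsCompact ((fun x => T x + b) '' K) := hKcomp.image hTcont
  have hin : Metric.closedBall c0 (1 / 5) ⊆ (fun x => T x + b) '' K := by
    intro y hy
    obtain ⟨h1, h2⟩ := ball_sub_simplex y hy
    exact hsimp y h1 h2
  have hout : (fun x => T x + b) '' K ⊆ Metric.closedBall c0 (21 / 10) := by
    rintro _ ⟨x, hx, rfl⟩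
    exact cube_sub_ball _ (hcube x hx)
  have h := hround m _ hK'conv hK'comp hin hout u' hu' B' hB' hcov'
  calc ENNReal.ofReal ε ≤ ∑ i, μHE[2] (B' i) /
        μHE[2] ((fun x => x - inner ℝ x (u' i) • u' i) '' ((fun x => T x + b) '' K)) := h
    _ = ∑ i, μHE[2] (B i) / μHE[2] ((fun x => x - inner ℝ x (u i) • u i) '' K) :=
        Finset.sum_congr rfl (fun i _ => hrat i)

end Vale.Agent.H65.GenK
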