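import Vale.Agent.H5.P243.Scale

/-!
# General convex bodies (P243), normalisation: four points of maximal determinant

`det4 v` is the determinant of the `3 × 3` matrix whose columns are `v 1 - v 0`, `v 2 - v 0`,
`v 3 - v 0` (six times the signed volume of the tetrahedron `v 0, v 1, v 2, v 3`).

ROW GKN-3a (`exists_max_det`). A compact set `K` with nonempty interior contains four points
with `det4 ≠ 0` maximising `|det4|` among all quadruples of points of `K`.

Sketch. `det4` is continuous on `Fin 4 → E3` (a polynomial in the coordinates: `Continuous.matrix_det`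
with continuous entries). The set `Set.pi Set.univ (fun _ => K)` is compact (`isCompact_univ_pi`)
and nonempty, so `|det4|` attains its maximum there (`IsCompact.exists_isMaxOn`). The maximum is
positive: `Metric.ball c ε ⊆ K` for some `c`, `ε > 0`; for `w 0 = c`,
`w (j+1) = c + (ε/2) • EuclideanSpace.single j 1` the matrix is `(ε/2) • 1`, `det4 w = (ε/2)^3 ≠ 0`.
-/

open MeasureTheory Set Module
open scoped ENNReal

namespace Vale.Agent.H65.GenK

open Vale.Agent.H5.P243

/-- Determinant of the edge vectors `v 1 - v 0`, `v 2 - v 0`, `v 3 - v 0` (as columns). -/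
noncomputable def det4 (v : Fin 4 → E3) : ℝ :=
  Matrix.det (Matrix.of fun i j : Fin 3 => (v j.succ - v 0) i)

theorem maxdet_small (c : E3) (ε : ℝ) :
    det4 (Fin.cons c (fun j : Fin 3 => c + (ε / 2) • EuclideanSpace.single j (1 : ℝ)) :
      Fin 4 → E3) = (ε / 2) ^ 3 := by
  unfold det4
  have h : (Matrix.of fun i j : Fin 3 =>
      ((Fin.cons c (fun j : Fin 3 => c + (ε / 2) • EuclideanSpace.single j (1 : ℝ)) :
          Fin 4 → E3) j.succ
        - (Fin.cons c (fun j : Fin 3 => c + (ε / 2) • EuclideanSpace.single j (1 : ℝ)) :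
          Fin 4 → E3) 0) i) = (ε / 2) • (1 : Matrix (Fin 3) (Fin 3) ℝ) := by
    ext i j
    simp [Matrix.one_apply]
  rw [h, Matrix.det_smul, Matrix.det_one]
  simp

theorem maxdet_continuous : Continuous det4 := by
  unfold det4
  apply Continuous.matrix_det
  apply continuous_matrix
  intro i j
  show Continuous fun v : Fin 4 → E3 => (v j.succ - v 0) i
  fun_prop

/-- **Four points of maximal determinant.** -/
theorem exists_max_det (K : Set E3) (hKcomp : IsCompact K) (hKint : (interior K).Nonempty) :
    ∃ v : Fin 4 → E3, (∀ j, v j ∈ K) ∧ det4 v ≠ 0 ∧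
      ∀ w : Fin 4 → E3, (∀ j, w j ∈ K) → |det4 w| ≤ |det4 v| := by
  have hcont : Continuous det4 := maxdet_continuous
  obtain ⟨c, hc⟩ := hKint
  have hcK : c ∈ K := interior_subset hc
  have hne : (Set.pi Set.univ (fun _ : Fin 4 => K)).Nonempty := ⟨fun _ => c, fun _ _ => hcK⟩
  have hcomp : IsCompact (Set.pi Set.univ (fun _ : Fin 4 => K)) :=
    isCompact_univ_pi (fun _ => hKcomp)
  obtain ⟨v, hvS, hvmax⟩ :=
    hcomp.exists_isMaxOn hne (continuous_abs.comp hcont).continuousOn
  have hvK : ∀ j, v j ∈ K := fun j => hvS j (Set.mem_univ j)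
  have hmax : ∀ w : Fin 4 → E3, (∀ j, w j ∈ K) → |det4 w| ≤ |det4 v| := by
    intro w hw
    exact isMaxOn_iff.1 hvmax w (fun j _ => hw j)
  refine ⟨v, hvK, ?_, hmax⟩
  obtain ⟨ε, hε, hball⟩ := Metric.isOpen_iff.1 isOpen_interior c hc
  have hw : ∀ j, (Fin.cons c (fun j : Fin 3 => c + (ε / 2) • EuclideanSpace.single j (1 : ℝ)) :
      Fin 4 → E3) j ∈ K := by
    intro j
    refine Fin.cases ?_ ?_ j
    · rw [Fin.cons_zero]
      exact hcK
    · intro k
      rw [Fin.cons_succ]
      apply interior_subset
      apply hball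
      have hn : ‖(EuclideanSpace.single k (1 : ℝ) : E3)‖ = 1 := by simp
      rw [Metric.mem_ball, dist_eq_norm, add_sub_cancel_left, norm_smul, hn,
        Real.norm_eq_abs, abs_of_pos (by linarith : 0 < ε / 2), mul_one]
      linarith
  have h1 := hmax _ hw
  rw [maxdet_small] at h1
  intro h0
  rw [h0, abs_zero] at h1
  have h2 : 0 < |(ε / 2) ^ 3| := abs_pos.2 (pow_ne_zero 3 (by linarith))
  linarith

end Vale.Agent.H65.GenK
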