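import Vale.Agent.H7.GenK.AffineTransfer
import Vale.Agent.H24.P243N.Sandwich

/-!
# General convex bodies (P243): from round bodies to all convex bodies

`all_of_round`: if a lower bound `ε` for the sum of the relative base areas holds for every
cylinder covering of every convex body lying between two concentric closed balls of radii `1/5`
and `21/10`, then it holds for every cylinder covering of every convex body.

Proof: an invertible affine map `A` sends `K` between two such balls
(`Vale.Agent.H24.P243N.exists_affine_sandwich`, from a simplex of maximal volume in `K`), and the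
covering is transported by `A` without changing the relative base areas
(`Vale.Agent.H7.GenK.cover_affine_transfer`).
-/

open MeasureTheory Set Module
open scoped ENNReal

namespace Vale.Agent.H65.GenK

open Vale.Agent.H5.P243

/-- **From round bodies to all convex bodies.** -/
theorem all_of_round (ε : ℝ)
    (hround : ∀ (m : ℕ) (K : Set E3) (c : E3), Convex ℝ K → IsCompact K →
      Metric.closedBall c (1 / 5) ⊆ K → K ⊆ Metric.closedBall c (21 / 10) →
      ∀ (u : Fin m → E3), (∀ i, ‖u i‖ = 1) → ∀ (B : Fin m → Set E3),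
      (∀ i, ∀ x ∈ B i, inner ℝ x (u i) = 0) →
      K ⊆ ⋃ i, {x | ∃ p ∈ B i, ∃ t : ℝ, x = p + t • u i} →
      ENNReal.ofReal ε ≤
        ∑ i, μHE[2] (B i) / μHE[2] ((fun x => x - inner ℝ x (u i) • u i) '' K))
    (m : ℕ) (K : Set E3) (hKconv : Convex ℝ K) (hKcomp : IsCompact K)
    (hKint : (interior K).Nonempty) (u : Fin m → E3) (hu : ∀ i, ‖u i‖ = 1)
    (B : Fin m → Set E3) (hB : ∀ i, ∀ x ∈ B i, inner ℝ x (u i) = 0)
    (hcov : K ⊆ ⋃ i, {x | ∃ p ∈ B i, ∃ t : ℝ, x = p + t • u i}) :
    ENNReal.ofReal ε ≤
      ∑ i, μHE[2] (B i) / μHE[2] ((fun x => x - inner ℝ x (u i) • u i) '' K) := by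
  obtain ⟨T, b, c, hin, hout⟩ :=
    Vale.Agent.H24.P243N.exists_affine_sandwich K hKconv hKcomp hKint
  obtain ⟨u', B', hu', hB', hcov', hrat⟩ :=
    Vale.Agent.H7.GenK.cover_affine_transfer m K u hu B hB hcov T b
  have hK'conv : Convex ℝ ((fun x => T x + b) '' K) := by
    rintro _ ⟨x, hx, rfl⟩ _ ⟨y, hy, rfl⟩ a d ha hd had
    refine ⟨a • x + d • y, hKconv hx hy ha hd had, ?_⟩
    have hb : b = a • b + d • b := by rw [← add_smul, had, one_smul]
    simp only [map_add, map_smul]
    nth_rewrite 1 [hb]
    module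
  have hTcont : Continuous fun x : E3 => T x + b := T.continuous.add continuous_const
  have hK'comp : IsCompact ((fun x => T x + b) '' K) := hKcomp.image hTcont
  have h := hround m _ c hK'conv hK'comp hin hout u' hu' B' hB' hcov'
  calc ENNReal.ofReal ε ≤ ∑ i, μHE[2] (B' i) /
        μHE[2] ((fun x => x - inner ℝ x (u' i) • u' i) '' ((fun x => T x + b) '' K)) := h
    _ = ∑ i, μHE[2] (B i) / μHE[2] ((fun x => x - inner ℝ x (u i) • u i) '' K) :=
        Finset.sum_congr rfl (fun i _ => hrat i)

end Vale.Agent.H65.GenK
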