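import Vale.Agent.H65.GenK.TransferOne

/-!
# General convex bodies (P243), normalisation: affine transfer of a cylinder covering

ROW GKN-2 (`transfer_cover`). If `K` is covered by the cylinders `B i + ℝ u i` and
`A x = T x + b` is an invertible affine map, then `A '' K` is covered by cylinders
`B' i + ℝ u' i` with the same relative base areas.

Sketch. `u' i := ‖T (u i)‖⁻¹ • T (u i)` (a unit vector: `T (u i) ≠ 0` as `T` is injective),
`B' i := shadow (u' i) (A '' B i)`.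
* `B' i ⊆ (u' i)^⊥`: `⟪y - ⟪y, u'⟫ • u', u'⟫ = 0` for a unit vector `u'`.
* covering: `x = p + t • u i` with `p ∈ B i` gives
  `A x = A p + (t * ‖T (u i)‖) • u' i = (A p - ⟪A p, u'⟫ • u') + (⟪A p, u'⟫ + t * ‖T (u i)‖) • u'`.
* ratios: `shadow (u i) (B i) = B i` because `B i ⊆ (u i)^⊥`; `transfer_one` with `X = B i` and
  with `X = K` gives `μHE[2] (B i) = c₁ * a`, `μHE[2] (B' i) = c₂ * a`,
  `μHE[2] (shadow u K) = c₁ * a'`, `μHE[2] (shadow u' (A '' K)) = c₂ * a'`; cancel with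
  `ENNReal.mul_div_mul_left`.
-/

open MeasureTheory Set Module
open scoped ENNReal

namespace Vale.Agent.H65.GenK

open Vale.Agent.H5.P243

/-- **Affine transfer of a covering.** -/
theorem transfer_cover (T : E3 ≃ₗ[ℝ] E3) (b : E3) (m : ℕ) (K : Set E3)
    (u : Fin m → E3) (hu : ∀ i, ‖u i‖ = 1) (B : Fin m → Set E3)
    (hB : ∀ i, ∀ x ∈ B i, inner ℝ x (u i) = 0)
    (hcov : K ⊆ ⋃ i, {x | ∃ p ∈ B i, ∃ t : ℝ, x = p + t • u i}) :
    ∃ (u' : Fin m → E3) (B' : Fin m → Set E3), (∀ i, ‖u' i‖ = 1) ∧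
      (∀ i, ∀ x ∈ B' i, inner ℝ x (u' i) = 0) ∧
      ((fun x => T x + b) '' K ⊆ ⋃ i, {x | ∃ p ∈ B' i, ∃ t : ℝ, x = p + t • u' i}) ∧
      ∀ i, μHE[2] (B' i) /
          μHE[2] ((fun x => x - inner ℝ x (u' i) • u' i) '' ((fun x => T x + b) '' K)) =
        μHE[2] (B i) / μHE[2] ((fun x => x - inner ℝ x (u i) • u i) '' K) := by
  have hTu : ∀ i, T (u i) ≠ 0 := by
    intro i h
    have h1 : u i = 0 := T.injective (h.trans (map_zero T).symm)
    have h2 := hu i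
    rw [h1, norm_zero] at h2
    exact zero_ne_one h2
  have hTn : ∀ i, 0 < ‖T (u i)‖ := fun i => norm_pos_iff.mpr (hTu i)
  have hn : ∀ i, ‖‖T (u i)‖⁻¹ • T (u i)‖ = 1 := by
    intro i
    rw [norm_smul, norm_inv, norm_norm, inv_mul_cancel₀ (hTn i).ne']
  refine ⟨fun i => ‖T (u i)‖⁻¹ • T (u i),
    fun i => shadow (‖T (u i)‖⁻¹ • T (u i)) ((fun x => T x + b) '' B i), hn, ?_, ?_, ?_⟩
  · intro i x hx
    obtain ⟨y, -, rfl⟩ := hx
    show inner ℝ (y - inner ℝ y (‖T (u i)‖⁻¹ • T (u i)) • (‖T (u i)‖⁻¹ • T (u i)))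
      (‖T (u i)‖⁻¹ • T (u i)) = 0
    rw [inner_sub_left, inner_smul_left, real_inner_self_eq_norm_sq, hn i]
    simp
  · rintro _ ⟨x, hx, rfl⟩
    obtain ⟨i, hi⟩ := Set.mem_iUnion.mp (hcov hx)
    obtain ⟨p, hp, t, rfl⟩ := hi
    refine Set.mem_iUnion.mpr ⟨i, ?_⟩
    have hTu' : T (u i) = ‖T (u i)‖ • (‖T (u i)‖⁻¹ • T (u i)) := by
      rw [smul_smul, mul_inv_cancel₀ (hTn i).ne', one_smul]
    refine ⟨(T p + b) - inner ℝ (T p + b) (‖T (u i)‖⁻¹ • T (u i)) • (‖T (u i)‖⁻¹ • T (u i)),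
      ⟨T p + b, ⟨p, hp, rfl⟩, rfl⟩,
      inner ℝ (T p + b) (‖T (u i)‖⁻¹ • T (u i)) + t * ‖T (u i)‖, ?_⟩
    show T (p + t • u i) + b = (T p + b) -
      inner ℝ (T p + b) (‖T (u i)‖⁻¹ • T (u i)) • (‖T (u i)‖⁻¹ • T (u i)) +
      (inner ℝ (T p + b) (‖T (u i)‖⁻¹ • T (u i)) + t * ‖T (u i)‖) • (‖T (u i)‖⁻¹ • T (u i))
    rw [map_add, map_smul, add_smul, mul_smul, ← hTu']
    abel
  · intro i
    obtain ⟨c₁, c₂, hc1, hc1', hc2, hc2', hX⟩ := transfer_one T b (u i) (hu i)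
    obtain ⟨a₁, h1, h2⟩ := hX (B i)
    obtain ⟨a₂, h3, h4⟩ := hX K
    have hsh : shadow (u i) (B i) = B i := by
      ext y
      constructor
      · rintro ⟨x, hx, rfl⟩
        show x - inner ℝ x (u i) • u i ∈ B i
        rw [hB i x hx, zero_smul, sub_zero]
        exact hx
      · intro hy
        refine ⟨y, hy, ?_⟩
        show y - inner ℝ y (u i) • u i = y
        rw [hB i y hy, zero_smul, sub_zero]
    rw [hsh] at h1
    have e1 : (fun x => x - inner ℝ x (‖T (u i)‖⁻¹ • T (u i)) • (‖T (u i)‖⁻¹ • T (u i))) ''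
        ((fun x => T x + b) '' K) = shadow (‖T (u i)‖⁻¹ • T (u i)) ((fun x => T x + b) '' K) :=
      rfl
    have e2 : (fun x => x - inner ℝ x (u i) • u i) '' K = shadow (u i) K := rfl
    simp only [e1, e2]
    rw [h1, h2, h3, h4, ENNReal.mul_div_mul_left _ _ hc2 hc2',
      ENNReal.mul_div_mul_left _ _ hc1 hc1']

end Vale.Agent.H65.GenK
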