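import Vale.Agent.H5.P243.Scale
import Vale.Agent.H7.GenK.AffineTransfer

/-!
# General convex bodies (P243), normalisation: affine transfer of one direction

ROW GKN-1 (`transfer_one`). Let `A x = T x + b` be an invertible affine map of Euclidean 3-space,
`u` a unit vector and `u' = ‖T u‖⁻¹ • T u`. Then there are constants `c₁, c₂` (neither `0` nor
`⊤`) such that for EVERY set `X` the areas of the shadow of `X` along `u` and of the shadow of
`A '' X` along `u'` are `c₁ * a` and `c₂ * a` with one and the same `a` (depending on `X`).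

Sketch. Take `v, w` with `![v, w, u]` orthonormal (an orthonormal basis of the orthogonal complement of `span {u}`, which
has `finrank = 2`; or any `v, w` with `![v, w, u]` linearly independent). Every `x` is
`g₁ • v + g₂ • w + t • u` with `g₁ = ⟪x, v⟫`, `g₂ = ⟪x, w⟫`, `t = ⟪x, u⟫`. Put
`A_X := (fun x => (⟪x, v⟫, ⟪x, w⟫)) '' X` and `a := volume A_X`. Then
`shadow u X = shadow u (chart 0 v w '' A_X)` by `Vale.Agent.H5.P243.proj_add_smul`, and
`shadow u' (A '' X) = shadow u' (chart b (T v) (T w) '' A_X)` because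
`A x = chart b (T v) (T w) (g₁, g₂) + (t * ‖T u‖) • u'`. Now use
`Vale.Agent.H5.P243.shadow_scaling u v w` and `shadow_scaling u' (T v) (T w)`
(`![T v, T w, u']` is linearly independent because `T` is injective and `T u = ‖T u‖ • u'`).
-/

open MeasureTheory Set Module
open scoped ENNReal

namespace Vale.Agent.H65.GenK

open Vale.Agent.H5.P243

/-- **Affine transfer, one direction.** -/
theorem transfer_one (T : E3 ≃ₗ[ℝ] E3) (b u : E3) (hu : ‖u‖ = 1) :
    ∃ c₁ c₂ : ℝ≥0∞, c₁ ≠ 0 ∧ c₁ ≠ ⊤ ∧ c₂ ≠ 0 ∧ c₂ ≠ ⊤ ∧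
      ∀ X : Set E3, ∃ a : ℝ≥0∞,
        μHE[2] (shadow u X) = c₁ * a ∧
        μHE[2] (shadow (‖T u‖⁻¹ • T u) ((fun x => T x + b) '' X)) = c₂ * a := by
  obtain ⟨κ, h0, ht, h⟩ :=
    Vale.Agent.H7.GenK.affine_shadow_scaling T.toContinuousLinearEquiv b u hu
  exact ⟨1, κ, one_ne_zero, ENNReal.one_ne_top, h0, ht, fun X =>
    ⟨μHE[2] (shadow u X), (one_mul _).symm, h X⟩⟩

end Vale.Agent.H65.GenK
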